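import Mathlib
import Vale.Agent.P032.Six.Star
import Vale.Agent.P032.S5.Clopen
import Vale.Agent.P032.H180.Tor

/-!
# P032: existence of a point with three colours

A closed cover of the plane by finitely many sets whose connected subsets have diameter at most
one has a point in three of the sets, in every disc of radius three.
-/

open Set Filter Topology Metric

noncomputable section

namespace Vale.Agent.P032.Six

open Vale.Agent.P032.S5 Vale.Agent.P032.H180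

/-- the unit square -/
def Qd : Set (ℝ × ℝ) := Icc (0 : ℝ) 1 ×ˢ Icc (0 : ℝ) 1

theorem isCompact_Qd : IsCompact Qd := isCompact_Icc.prod isCompact_Icc

/-- labels avoiding three sides -/
theorem exists_lab {C : Set (ℝ × ℝ)} (hC : IsClosed C) (hCQ : C ⊆ Qd)
    (hd : ∀ Q ⊆ C, IsPreconnected Q → ∀ x ∈ Q, ∀ y ∈ Q, |x.1 - y.1| ≤ 1 / 4 ∧
      |x.2 - y.2| ≤ 1 / 4) :
    ∃ L : ℝ × ℝ → Fin 3, (∀ p ∈ C, ∀ᶠ q in 𝓝[C] p, L q = L p) ∧
      (∀ p ∈ C, p.2 = 0 → L p ≠ 0) ∧ (∀ p ∈ C, p.1 = 1 ∨ p.2 = 1 → L p ≠ 1) ∧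
      ∀ p ∈ C, p.1 = 0 → L p ≠ 2 := by
  classical
  have hcpt : IsCompact C := isCompact_Qd.of_isClosed_subset hC hCQ
  have : CompactSpace C := isCompact_iff_compactSpace.1 hcpt
  have hcomp : ∀ x y : C, y ∈ connectedComponent x →
      |(x : ℝ × ℝ).1 - (y : ℝ × ℝ).1| ≤ 1 / 4 ∧ |(x : ℝ × ℝ).2 - (y : ℝ × ℝ).2| ≤ 1 / 4 := by
    intro x y hy
    refine hd (Subtype.val '' connectedComponent x) ?_
      (isPreconnected_connectedComponent.image _ continuous_subtype_val.continuousOn) _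
      ⟨x, mem_connectedComponent, rfl⟩ _ ⟨y, hy, rfl⟩
    rintro _ ⟨z, _, rfl⟩
    exact z.2
  obtain ⟨N, hN, hN1, hN2⟩ := exists_clopen_closed (C := C)
    (X := {x : C | (x : ℝ × ℝ).2 = 0}) (Y := {x : C | 1 / 2 ≤ (x : ℝ × ℝ).2})
    (isClosed_eq (by fun_prop) (by fun_prop)) (isClosed_le (by fun_prop) (by fun_prop)) (by
      intro x hx y hy hxy
      have h1 : (x : ℝ × ℝ).2 = 0 := hx
      have h2 : 1 / 2 ≤ (y : ℝ × ℝ).2 := hy
      have h3 := (hcomp x y hxy).2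
      rw [h1, abs_le] at h3
      linarith [h3.1])
  obtain ⟨N', hN', hN1', hN2'⟩ := exists_clopen_closed (C := C)
    (X := {x : C | (x : ℝ × ℝ).1 = 0}) (Y := {x : C | 1 / 2 ≤ (x : ℝ × ℝ).1})
    (isClosed_eq (by fun_prop) (by fun_prop)) (isClosed_le (by fun_prop) (by fun_prop)) (by
      intro x hx y hy hxy
      have h1 : (x : ℝ × ℝ).1 = 0 := hx
      have h2 : 1 / 2 ≤ (y : ℝ × ℝ).1 := hy
      have h3 := (hcomp x y hxy).1
      rw [h1, abs_le] at h3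
      linarith [h3.1])
  refine ⟨fun p => if h : p ∈ C then (if (⟨p, h⟩ : C) ∈ N then
    (if (⟨p, h⟩ : C) ∈ N' then 1 else 2) else 0) else 0, ?_, ?_, ?_, ?_⟩
  · intro p hp
    rw [nhdsWithin_eq_map_subtype_coe hp, eventually_map]
    have e1 : ∀ᶠ y in 𝓝 (⟨p, hp⟩ : C), (y ∈ N ↔ (⟨p, hp⟩ : C) ∈ N) := by
      by_cases h : (⟨p, hp⟩ : C) ∈ N
      · filter_upwards [hN.isOpen.mem_nhds h] with y hy using ⟨fun _ => h, fun _ => hy⟩
      · filter_upwards [hN.compl.isOpen.mem_nhds h] with y hy using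
          ⟨fun h' => absurd h' hy, fun h' => absurd h' h⟩
    have e2 : ∀ᶠ y in 𝓝 (⟨p, hp⟩ : C), (y ∈ N' ↔ (⟨p, hp⟩ : C) ∈ N') := by
      by_cases h : (⟨p, hp⟩ : C) ∈ N'
      · filter_upwards [hN'.isOpen.mem_nhds h] with y hy using ⟨fun _ => h, fun _ => hy⟩
      · filter_upwards [hN'.compl.isOpen.mem_nhds h] with y hy using
          ⟨fun h' => absurd h' hy, fun h' => absurd h' h⟩
    filter_upwards [e1, e2] with y h1 h2
    rw [dif_pos y.2, dif_pos hp]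
    simp only [Subtype.coe_eta, h1, h2]
  · intro p hp h0
    have h1 : (⟨p, hp⟩ : C) ∈ N := hN1 h0
    simp only [dif_pos hp, if_pos h1]
    split_ifs <;> decide
  · intro p hp h0
    simp only [dif_pos hp]
    by_cases h1 : (⟨p, hp⟩ : C) ∈ N
    · by_cases h2 : (⟨p, hp⟩ : C) ∈ N'
      · exfalso
        have h3 : ¬ 1 / 2 ≤ p.2 := fun h => Set.disjoint_left.1 hN2 h1 h
        have h4 : ¬ 1 / 2 ≤ p.1 := fun h => Set.disjoint_left.1 hN2' h2 h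
        rcases h0 with h0 | h0
        · rw [h0] at h4; norm_num at h4
        · rw [h0] at h3; norm_num at h3
      · rw [if_pos h1, if_neg h2]; decide
    · rw [if_neg h1]; decide
  · intro p hp h0
    have h1 : (⟨p, hp⟩ : C) ∈ N' := hN1' h0
    simp only [dif_pos hp, if_pos h1]
    split_ifs <;> decide

/-- orientation of a pair of labels -/
def tri (l m : Fin 3) : ℤ := if m = l + 1 then 1 else if l = m + 1 then -1 else 0

theorem tri_coc : ∀ n i j l : Fin 3, i ≠ n → j ≠ n → l ≠ n → tri i j + tri j l = tri i l := by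
  decide

theorem tri_diff : ∀ n i j : Fin 3, i ≠ n → j ≠ n →
    tri i j = (if j = n + 2 then (1 : ℤ) else 0) - (if i = n + 2 then (1 : ℤ) else 0) := by
  decide

/-- three closed sets covering the square, each missing one side -/
theorem sperner {K : ℝ × ℝ → Set (Fin 3)} (hne : ∀ p ∈ Qd, (K p).Nonempty)
    (hloc : ∀ p ∈ Qd, ∀ᶠ q in 𝓝[Qd] p, K q ⊆ K p)
    (h0 : ∀ p ∈ Qd, p.2 = 0 → (0 : Fin 3) ∉ K p)
    (h1 : ∀ p ∈ Qd, p.1 = 1 ∨ p.2 = 1 → (1 : Fin 3) ∉ K p)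
    (h2 : ∀ p ∈ Qd, p.1 = 0 → (2 : Fin 3) ∉ K p) : ∃ p ∈ Qd, ∀ n, n ∈ K p := by
  by_contra hcon
  push Not at hcon
  have hT : Tor Qd K fun _ => tri := by
    refine ⟨hne, ?_, ?_⟩
    · intro p hp i hi j hj l hl
      obtain ⟨n, hn⟩ := hcon p hp
      exact tri_coc n i j l (fun e => hn (e ▸ hi)) (fun e => hn (e ▸ hj)) fun e => hn (e ▸ hl)
    · intro p hp
      filter_upwards [hloc p hp] with q hq
      exact ⟨hq, fun _ _ _ _ => rfl⟩
  obtain ⟨g, hg⟩ := square hT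
  have side : ∀ (S : Set (ℝ × ℝ)) (n : Fin 3), S ⊆ Qd → IsPreconnected S →
      (∀ p ∈ S, n ∉ K p) → ∃ a : ℤ, ∀ p ∈ S, ∀ m ∈ K p, g p m = (if m = n + 2 then 1 else 0) + a := by
    intro S n hS hSc hn
    refine Sec.unique (hT.mono hS) hSc (hg.mono hS) (g' := fun _ m => if m = n + 2 then 1 else 0)
      ⟨fun p hp i hi j hj => ?_, fun p hp => Eventually.of_forall fun _ _ _ => rfl⟩
    exact tri_diff n i j (fun e => hn p hp (e ▸ hi)) fun e => hn p hp (e ▸ hj)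
  have m0 : (0 : ℝ) ∈ Icc (0 : ℝ) 1 := ⟨le_rfl, zero_le_one⟩
  have m1 : (1 : ℝ) ∈ Icc (0 : ℝ) 1 := ⟨zero_le_one, le_rfl⟩
  obtain ⟨a, ha⟩ := side (Icc (0 : ℝ) 1 ×ˢ {0}) 0
    (prod_mono Subset.rfl (singleton_subset_iff.2 m0))
    ((convex_Icc _ _).prod (convex_singleton _)).isPreconnected
    (fun p hp => h0 p ⟨hp.1, by rw [show p.2 = 0 from hp.2]; exact m0⟩ hp.2)
  obtain ⟨b, hb⟩ := side (({1} ×ˢ Icc (0 : ℝ) 1) ∪ (Icc (0 : ℝ) 1 ×ˢ {1})) 1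
    (union_subset (prod_mono (singleton_subset_iff.2 m1) Subset.rfl)
      (prod_mono Subset.rfl (singleton_subset_iff.2 m1)))
    (IsPreconnected.union (1, 1) ⟨rfl, m1⟩ ⟨m1, rfl⟩
      ((convex_singleton _).prod (convex_Icc _ _)).isPreconnected
      ((convex_Icc _ _).prod (convex_singleton _)).isPreconnected)
    (by
      rintro p (hp | hp)
      · exact h1 p ⟨by rw [show p.1 = 1 from hp.1]; exact m1, hp.2⟩ (Or.inl hp.1)
      · exact h1 p ⟨hp.1, by rw [show p.2 = 1 from hp.2]; exact m1⟩ (Or.inr hp.2))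
  obtain ⟨d, hd⟩ := side ({0} ×ˢ Icc (0 : ℝ) 1) 2
    (prod_mono (singleton_subset_iff.2 m0) Subset.rfl)
    ((convex_singleton _).prod (convex_Icc _ _)).isPreconnected
    (fun p hp => h2 p ⟨by rw [show p.1 = 0 from hp.1]; exact m0, hp.2⟩ hp.1)
  -- the corners
  have f1 : ∀ m : Fin 3, m ≠ 0 → m ≠ 2 → m = 1 := by decide
  have f2 : ∀ m : Fin 3, m ≠ 0 → m ≠ 1 → m = 2 := by decide
  have f0 : ∀ m : Fin 3, m ≠ 1 → m ≠ 2 → m = 0 := by decide
  have c1 : (1 : Fin 3) ∈ K (0, 0) := by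
    obtain ⟨m, hm⟩ := hne (0, 0) ⟨m0, m0⟩
    have e0 : m ≠ 0 := fun e => h0 (0, 0) ⟨m0, m0⟩ rfl (e ▸ hm)
    have e2 : m ≠ 2 := fun e => h2 (0, 0) ⟨m0, m0⟩ rfl (e ▸ hm)
    have : m = 1 := f1 m e0 e2
    exact this ▸ hm
  have c2 : (2 : Fin 3) ∈ K (1, 0) := by
    obtain ⟨m, hm⟩ := hne (1, 0) ⟨m1, m0⟩
    have e0 : m ≠ 0 := fun e => h0 (1, 0) ⟨m1, m0⟩ rfl (e ▸ hm)
    have e2 : m ≠ 1 := fun e => h1 (1, 0) ⟨m1, m0⟩ (Or.inl rfl) (e ▸ hm)
    have : m = 2 := f2 m e0 e2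
    exact this ▸ hm
  have c0 : (0 : Fin 3) ∈ K (0, 1) := by
    obtain ⟨m, hm⟩ := hne (0, 1) ⟨m0, m1⟩
    have e0 : m ≠ 1 := fun e => h1 (0, 1) ⟨m0, m1⟩ (Or.inr rfl) (e ▸ hm)
    have e2 : m ≠ 2 := fun e => h2 (0, 1) ⟨m0, m1⟩ rfl (e ▸ hm)
    have : m = 0 := f0 m e0 e2
    exact this ▸ hm
  have q1 := ha (0, 0) ⟨m0, rfl⟩ 1 c1
  have q2 := hd (0, 0) ⟨rfl, m0⟩ 1 c1
  have q3 := ha (1, 0) ⟨m1, rfl⟩ 2 c2
  have q4 := hb (1, 0) (Or.inl ⟨rfl, m0⟩) 2 c2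
  have q5 := hb (0, 1) (Or.inr ⟨m0, rfl⟩) 0 c0
  have q6 := hd (0, 1) ⟨rfl, m1⟩ 0 c0
  have w1 : (if (1 : Fin 3) = 0 + 2 then (1 : ℤ) else 0) = 0 := by decide
  have w2 : (if (1 : Fin 3) = 2 + 2 then (1 : ℤ) else 0) = 1 := by decide
  have w3 : (if (2 : Fin 3) = 0 + 2 then (1 : ℤ) else 0) = 1 := by decide
  have w4 : (if (2 : Fin 3) = 1 + 2 then (1 : ℤ) else 0) = 0 := by decide
  have w5 : (if (0 : Fin 3) = 1 + 2 then (1 : ℤ) else 0) = 1 := by decide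
  have w6 : (if (0 : Fin 3) = 2 + 2 then (1 : ℤ) else 0) = 0 := by decide
  rw [w1] at q1; rw [w2] at q2; rw [w3] at q3; rw [w4] at q4; rw [w5] at q5; rw [w6] at q6
  omega

/-- the square of side four about `c` -/
def Pc (c : ℂ) (p : ℝ × ℝ) : ℂ :=
  c + (((4 * p.1 - 2 : ℝ) : ℂ) + ((4 * p.2 - 2 : ℝ) : ℂ) * Complex.I)

theorem continuous_Pc (c : ℂ) : Continuous (Pc c) := by unfold Pc; fun_prop

theorem Pc_re (c : ℂ) (p : ℝ × ℝ) : (Pc c p).re = c.re + (4 * p.1 - 2) := by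
  simp [Pc]

theorem Pc_im (c : ℂ) (p : ℝ × ℝ) : (Pc c p).im = c.im + (4 * p.2 - 2) := by
  simp [Pc]

theorem dist_Pc {c : ℂ} {p : ℝ × ℝ} (hp : p ∈ Qd) : dist (Pc c p) c ≤ 3 := by
  obtain ⟨⟨a1, a2⟩, ⟨b1, b2⟩⟩ := hp
  have h1 : dist (Pc c p) c ^ 2 ≤ 9 := by
    rw [sq_dist, Pc_re, Pc_im]
    nlinarith
  have h2 := dist_nonneg (x := Pc c p) (y := c)
  nlinarith

/-- **Existence of a point with three colours**, for covers with small connected subsets -/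
theorem exists_three_of {k : ℕ} {K : ℂ → Set (Fin k)} (hcl : ∀ i, IsClosed {x | i ∈ K x})
    (hne : ∀ x, (K x).Nonempty)
    (hd : ∀ i (Q : Set ℂ), IsPreconnected Q → (∀ x ∈ Q, i ∈ K x) → ∀ x ∈ Q, ∀ y ∈ Q,
      dist x y ≤ 1) (c : ℂ) : ∃ v, dist v c ≤ 3 ∧ 3 ≤ (K v).ncard := by
  have hlab : ∀ i : Fin k, ∃ L : ℝ × ℝ → Fin 3,
      (∀ p ∈ Qd ∩ {p | i ∈ K (Pc c p)}, ∀ᶠ q in 𝓝[Qd ∩ {p | i ∈ K (Pc c p)}] p, L q = L p) ∧
      (∀ p ∈ Qd ∩ {p | i ∈ K (Pc c p)}, p.2 = 0 → L p ≠ 0) ∧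
      (∀ p ∈ Qd ∩ {p | i ∈ K (Pc c p)}, p.1 = 1 ∨ p.2 = 1 → L p ≠ 1) ∧
      ∀ p ∈ Qd ∩ {p | i ∈ K (Pc c p)}, p.1 = 0 → L p ≠ 2 := by
    intro i
    refine exists_lab (isCompact_Qd.isClosed.inter ((hcl i).preimage (continuous_Pc c)))
      inter_subset_left fun Q hQ hQc x hx y hy => ?_
    have h1 := hd i (Pc c '' Q) (hQc.image _ (continuous_Pc c).continuousOn) (by
      rintro _ ⟨z, hz, rfl⟩
      exact (hQ hz).2) _ ⟨x, hx, rfl⟩ _ ⟨y, hy, rfl⟩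
    have h2 : |(Pc c x).re - (Pc c y).re| ≤ 1 := by
      rw [← Complex.sub_re]
      exact (Complex.abs_re_le_norm _).trans (by rwa [← Complex.dist_eq])
    have h3 : |(Pc c x).im - (Pc c y).im| ≤ 1 := by
      rw [← Complex.sub_im]
      exact (Complex.abs_im_le_norm _).trans (by rwa [← Complex.dist_eq])
    rw [Pc_re, Pc_re, abs_le] at h2
    rw [Pc_im, Pc_im, abs_le] at h3
    rw [abs_le, abs_le]
    constructor <;> constructor <;> linarith [h2.1, h2.2, h3.1, h3.2]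
  choose L hL1 hL2 hL3 hL4 using hlab
  obtain ⟨p, hp, hall⟩ := sperner (K := fun p => (fun i => L i p) '' K (Pc c p))
    (fun p _ => (hne _).image _) (by
      intro p hp
      have e1 : ∀ i, ∀ᶠ q in 𝓝[Qd] p, i ∈ K (Pc c q) → i ∈ K (Pc c p) ∧ L i q = L i p := by
        intro i
        by_cases hi : i ∈ K (Pc c p)
        · have h1 := hL1 i p ⟨hp, hi⟩
          rw [nhdsWithin_inter', eventually_inf_principal] at h1
          filter_upwards [h1] with q hq hqi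
          exact ⟨hi, hq hqi⟩
        · have h1 : {x | i ∈ K x}ᶜ ∈ 𝓝 (Pc c p) := (hcl i).isOpen_compl.mem_nhds hi
          have h2 := (continuous_Pc c).continuousAt.preimage_mem_nhds h1
          filter_upwards [mem_nhdsWithin_of_mem_nhds h2] with q hq hqi
          exact absurd hqi hq
      filter_upwards [eventually_all.2 e1] with q hq
      rintro _ ⟨i, hi, rfl⟩
      obtain ⟨h1, h2⟩ := hq i hi
      exact ⟨i, h1, h2.symm⟩)
    (by
      rintro p hp h ⟨i, hi, h1⟩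
      exact hL2 i p ⟨hp, hi⟩ h h1)
    (by
      rintro p hp h ⟨i, hi, h1⟩
      exact hL3 i p ⟨hp, hi⟩ h h1)
    (by
      rintro p hp h ⟨i, hi, h1⟩
      exact hL4 i p ⟨hp, hi⟩ h h1)
  refine ⟨Pc c p, dist_Pc hp, ?_⟩
  have h1 : (univ : Set (Fin 3)).ncard ≤ (K (Pc c p)).ncard := by
    have h2 : (univ : Set (Fin 3)) ⊆ (fun i => L i p) '' K (Pc c p) := fun n _ => hall n
    exact (Set.ncard_le_ncard h2 (Set.toFinite _)).trans (Set.ncard_image_le (Set.toFinite _))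
  rw [Set.ncard_univ, Nat.card_eq_fintype_card, Fintype.card_fin] at h1
  exact h1

variable {k : ℕ} {U : Fin k → Set ℂ}

/-- connected subsets of `F_i` have diameter at most one -/
theorem Mx.diam_le (h : Mx U) {i : Fin k} {Q : Set ℂ} (hQ : IsPreconnected Q)
    (hQF : Q ⊆ closure (U i)) {x y : ℂ} (hx : x ∈ Q) (hy : y ∈ Q) : dist x y ≤ 1 := by
  by_contra hcon
  push Not at hcon
  exact h.wlemma hQ hQF hx hy (by rw [dist_self]; exact one_pos) (by rw [dist_comm]; exact hcon)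
    (hQF hx)

/-- **Every disc of radius three has a point with three colours.** -/
theorem Mx.exists_three (h : Mx U) (c : ℂ) : ∃ v, dist v c ≤ 3 ∧ 3 ≤ (Kst U v).ncard :=
  exists_three_of (isClosed_Fst U) h.Kst_nonempty
    (fun _ _ hQ hQi _ hx _ hy => h.diam_le hQ (fun z hz => Kst_sub z (hQi z hz)) hx hy) c

end Vale.Agent.P032.Six
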