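import Mathlib
import Vale.Agent.P032.Six.Star

/-!
# P032: the outer lemma and the components of `F_i ∩ F_j`
-/

open Set Filter Topology Metric

noncomputable section

namespace Vale.Agent.P032.Six

variable {k : ℕ} {U : Fin k → Set ℂ}

theorem cis_add (s t : ℝ) : cis (s + t) = cis s * cis t := by
  unfold cis
  rw [← Complex.exp_add]
  congr 1
  push_cast
  ring

theorem cis_arg {z : ℂ} (hz : z ≠ 0) : cis z.arg = z / (‖z‖ : ℂ) := by
  have h1 := Complex.norm_mul_exp_arg_mul_I z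
  have h2 : (‖z‖ : ℂ) ≠ 0 := by simpa using hz
  rw [eq_div_iff h2, mul_comm]
  exact h1

theorem sq_norm_cis_sub (s t : ℝ) : ‖cis s - 2 * cis t‖ ^ 2 = 5 - 4 * Real.cos (s - t) := by
  have h1 : cis s - 2 * cis t = cis t * (cis (s - t) - 2) := by
    have : cis s = cis t * cis (s - t) := by rw [← cis_add]; congr 1; ring
    rw [this]; ring
  rw [h1, norm_mul, norm_cis, one_mul, Complex.sq_norm, Complex.normSq_apply]
  have h2 : cis (s - t) = ⟨Real.cos (s - t), Real.sin (s - t)⟩ := by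
    unfold cis
    rw [Complex.exp_mul_I, ← Complex.ofReal_cos, ← Complex.ofReal_sin]
    apply Complex.ext
    · rw [Complex.add_re, Complex.mul_re, Complex.ofReal_re, Complex.ofReal_re,
        Complex.ofReal_im, Complex.I_re, Complex.I_im]
      ring
    · rw [Complex.add_im, Complex.mul_im, Complex.ofReal_re, Complex.ofReal_im,
        Complex.ofReal_im, Complex.I_re, Complex.I_im]
      ring
  rw [h2]
  simp
  nlinarith [Real.sin_sq_add_cos_sq (s - t)]

/-- near an outward tangency: the moved circle has points inside and outside -/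
theorem cross_in {x y : ℂ} {θ : ℝ} (hy : y = x + cis θ) {r : ℝ} (hr : 0 < r) :
    ∀ᶠ x' in 𝓝 x, dist x' y < 1 → ∃ Q : Set ℂ, IsPreconnected Q ∧
      (∀ q ∈ Q, dist q x' = 1 ∧ dist q y < r) ∧ (∃ a ∈ Q, dist a (2 * y - x) < 1) ∧
      ∃ b ∈ Q, 1 < dist b (2 * y - x) := by
  -- the size of the arc
  have hc : ContinuousAt cis θ := continuous_cis.continuousAt
  obtain ⟨η, hη, hηr⟩ := Metric.continuousAt_iff.1 hc (r / 2) (by positivity)
  set m := min η 1 with hm
  have hm0 : 0 < m := lt_min hη one_pos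
  -- the outer point
  have hb1 : 1 < dist (x + cis (θ + m / 2)) (2 * y - x) := by
    have e1 : x + cis (θ + m / 2) - (2 * y - x) = cis (θ + m / 2) - 2 * cis θ := by
      rw [hy]; ring
    rw [dist_eq_norm, e1]
    have e2 := sq_norm_cis_sub (θ + m / 2) θ
    rw [add_sub_cancel_left] at e2
    have e3 : Real.cos (m / 2) < 1 := by
      rw [← Real.cos_zero]
      have hm1 : m ≤ 1 := min_le_right _ _
      refine Real.cos_lt_cos_of_nonneg_of_le_pi le_rfl ?_ (by positivity)
      have := Real.pi_gt_three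
      linarith
    have e4 := norm_nonneg (cis (θ + m / 2) - 2 * cis θ)
    nlinarith
  have hb2 : ∀ᶠ x' in 𝓝 x, 1 < dist (x' + cis (θ + m / 2)) (2 * y - x) := by
    have hcont : Continuous fun x' => dist (x' + cis (θ + m / 2)) (2 * y - x) := by fun_prop
    exact hcont.continuousAt.eventually (Ioi_mem_nhds hb1)
  -- the direction of the inner point
  have hθ0 : cis θ ≠ 0 := by
    intro h0
    have := norm_cis θ
    rw [h0, norm_zero] at this
    exact zero_ne_one this
  have ha1 : ContinuousAt (fun x' => ((2 * y - x - x') / cis θ).arg) x := by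
    have e1 : (2 * y - x - x) / cis θ = 2 := by
      rw [hy, div_eq_iff hθ0]; ring
    have e2 : ContinuousAt Complex.arg ((2 * y - x - x) / cis θ) := by
      rw [e1]
      refine Complex.continuousAt_arg ?_
      simp [Complex.slitPlane]
    have e3 : ContinuousAt (fun x' => (2 * y - x - x') / cis θ) x := by
      refine (Continuous.div_const ?_ _).continuousAt
      fun_prop
    exact ContinuousAt.comp (f := fun x' => (2 * y - x - x') / cis θ) (g := Complex.arg) e2 e3
  have ha2 : ∀ᶠ x' in 𝓝 x, |((2 * y - x - x') / cis θ).arg| < m := by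
    have e1 : (2 * y - x - x) / cis θ = 2 := by
      rw [hy, div_eq_iff hθ0]; ring
    have e2 : |((2 * y - x - x) / cis θ).arg| < m := by
      rw [e1]
      have : Complex.arg 2 = 0 := by
        simp
      rw [this, abs_zero]; exact hm0
    exact (ha1.abs).eventually (Iio_mem_nhds e2)
  have hr2 : ∀ᶠ x' in 𝓝 x, dist x' x < r / 2 := Metric.eventually_nhds_iff.2
    ⟨r / 2, by positivity, fun _ h => h⟩
  have hone : ∀ᶠ x' in 𝓝 x, dist x' x < 1 := Metric.eventually_nhds_iff.2
    ⟨1, one_pos, fun _ h => h⟩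
  filter_upwards [hb2, ha2, hr2, hone] with x' h1 h2 h3 h4 h5
  set v := 2 * y - x - x' with hv
  have hyx : dist y x = 1 := by rw [hy]; exact dist_add_cis x θ
  have hv2 : ‖v‖ < 2 := by
    have e1 : v = (y - x) + (y - x') := by rw [hv]; ring
    have e2 := norm_add_le (y - x) (y - x')
    have e3 : ‖y - x‖ = 1 := by rw [← dist_eq_norm]; exact hyx
    have e4 : ‖y - x'‖ < 1 := by rw [← dist_eq_norm, dist_comm]; exact h5
    rw [← e1] at e2
    linarith
  have hv0 : 0 < ‖v‖ := by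
    have e1 : 2 * (y - x) = v + (x' - x) := by rw [hv]; ring
    have e2 := norm_add_le v (x' - x)
    have e3 : ‖y - x‖ = 1 := by rw [← dist_eq_norm]; exact hyx
    have e4 : ‖x' - x‖ < 1 := by rw [← dist_eq_norm]; exact h4
    have e5 : ‖(2 : ℂ)‖ = 2 := by simp
    rw [← e1, norm_mul, e3, e5] at e2
    linarith
  have hvne : v ≠ 0 := norm_pos_iff.1 hv0
  set ta := θ + (v / cis θ).arg with hta
  have hcis : cis ta = v / (‖v‖ : ℂ) := by
    rw [hta, cis_add, cis_arg (div_ne_zero hvne hθ0), norm_div, norm_cis, div_one]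
    field_simp
  refine ⟨(fun t => x' + cis t) '' ball θ m,
    (convex_ball θ m).isPreconnected.image _
      (continuous_const.add continuous_cis).continuousOn, ?_,
    ⟨x' + cis ta, ⟨ta, ?_, rfl⟩, ?_⟩, ⟨x' + cis (θ + m / 2), ⟨θ + m / 2, ?_, rfl⟩, h1⟩⟩
  · rintro _ ⟨t, ht, rfl⟩
    refine ⟨dist_add_cis x' t, ?_⟩
    have e1 : dist (cis t) (cis θ) < r / 2 := hηr (lt_of_lt_of_le ht (min_le_left _ _))
    have e2 : dist (x' + cis t) y ≤ dist x' x + dist (cis t) (cis θ) := by
      rw [hy]; exact dist_add_add_le _ _ _ _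
    simp only
    linarith
  · rw [mem_ball, Real.dist_eq, hta, add_sub_cancel_left]
    exact h2
  · have e1 : x' + cis ta - (2 * y - x) = -(v - v / (‖v‖ : ℂ)) := by
      rw [hcis, hv]; ring
    have e2 : v - v / (‖v‖ : ℂ) = (1 - 1 / (‖v‖ : ℂ)) * v := by ring
    have e3 : (1 - 1 / (‖v‖ : ℂ)) = ((1 - 1 / ‖v‖ : ℝ) : ℂ) := by push_cast; ring
    rw [dist_eq_norm, e1, norm_neg, e2, e3, norm_mul, Complex.norm_real, Real.norm_eq_abs]
    have e4 : |1 - 1 / ‖v‖| * ‖v‖ = |‖v‖ - 1| := by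
      rw [← abs_of_pos hv0, ← abs_mul, abs_of_pos hv0]
      congr 1
      field_simp
    rw [e4, abs_lt]
    constructor <;> linarith
  · rw [mem_ball, Real.dist_eq, add_sub_cancel_left, abs_of_pos (by positivity)]
    linarith

/-- a contact of the reduced palettes is in `XX` -/
theorem Mx.contact (h : Mx U) {x y : ℂ} {i : Fin k} (hx : i ∈ Kst U x) (hy : i ∈ Kst U y)
    (hxy : dist x y = 1) : x ∈ XX U ∧ y ∈ XX U := by
  constructor
  · by_contra hcon
    exact Set.disjoint_left.1 (h.Kst_disj hxy hcon) hx (Kst_sub y hy)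
  · by_contra hcon
    exact Set.disjoint_left.1 (h.Kst_disj (by rw [dist_comm]; exact hxy) hcon) hy (Kst_sub x hx)

/-- **Outer lemma** -/
theorem Mx.outer (h : Mx U) {i j : Fin k} (hij : i ≠ j) {x y : ℂ} (hxi : i ∈ Kst U x)
    (hxj : j ∈ Kst U x) (hyi : i ∈ Kst U y) (hyj : j ∈ Kst U y) (hxy : dist x y = 1)
    (hx3 : (Kst U x).ncard ≤ 3) (hy3 : (Kst U y).ncard ≤ 3) :
    ∀ᶠ x' in 𝓝 x, i ∈ Kst U x' → j ∈ Kst U x' → 1 ≤ dist x' y := by
  obtain ⟨hxX, hyX⟩ := h.contact hxi hyi hxy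
  have hx3' : (Pal U x).ncard ≤ 3 := by rwa [Kst_XX hxX] at hx3
  rw [Kst_XX hyX] at hyi hyj hy3
  have hxi' := Kst_sub x hxi
  have hxj' := Kst_sub x hxj
  -- the third colour of `y`
  have hns := h.not_sub hxX (y := y) (by rw [dist_comm]; exact hxy) hx3'
  rw [Set.not_subset] at hns
  obtain ⟨l, hly, hlx⟩ := hns
  have hli : l ≠ i := fun e => hlx (e ▸ hxi')
  have hlj : l ≠ j := fun e => hlx (e ▸ hxj')
  have hpal : Pal U y = {i, j, l} := by
    symm
    refine Set.eq_of_subset_of_ncard_le ?_ ?_ (Set.toFinite _)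
    · rintro m (rfl | rfl | rfl) <;> assumption
    · rw [Set.ncard_eq_three.2 ⟨i, j, l, hij, hli.symm, hlj.symm, rfl⟩]
      exact hy3
  -- the partner
  obtain ⟨p, hyp, hpl⟩ := h.partner_third hij hxX hyX (by rw [dist_comm]; exact hxy) hxi' hxj'
    hx3' (l := l) (by rw [hpal])
  have hp2 : p = 2 * y - x := by
    have := h.lemmaX (u := x) (p := y) (v := p) (t := l) hxX (by rw [dist_comm]; exact hxy) hx3' (by
      rw [hpal]
      rintro m (rfl | rfl | rfl)
      · exact Or.inr hxi'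
      · exact Or.inr hxj'
      · exact Or.inl rfl) hyp hpl
    rcases this with h1 | h1
    · exact absurd (h1 ▸ hpl) hlx
    · linear_combination h1
  obtain ⟨r, hr, hrp⟩ := pal_ball U y
  obtain ⟨θ, hθ⟩ := exists_cis (u := y - x) (by rw [← dist_eq_norm, dist_comm]; exact hxy)
  have hyθ : y = x + cis θ := by rw [← hθ]; ring
  filter_upwards [Kst_nhd U x, cross_in hyθ hr] with x' h1 h2 hi' hj'
  by_contra hcon
  push Not at hcon
  obtain ⟨Q, hQ, hQq, ⟨a, haQ, ha⟩, ⟨b, hbQ, hb⟩⟩ := h2 hcon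
  have h3' : (Kst U x').ncard ≤ 3 := (Set.ncard_le_ncard h1 (Set.toFinite _)).trans hx3
  have hQl : Q ⊆ closure (U l) := by
    intro q hq
    by_contra hl
    refine h.Pal_not_sub (x := x') (hQq q hq).1 h3' fun m hm => ?_
    have h4 := hrp q (hQq q hq).2 hm
    rw [hpal] at h4
    rcases h4 with rfl | rfl | rfl
    · exact hi'
    · exact hj'
    · exact absurd hm hl
  rw [← hp2] at ha hb
  exact h.wlemma hQ hQl haQ hbQ ha hb hpl

/-- **Connected subsets of `F_i ∩ F_j` have all distances less than one.** -/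
theorem Mx.conn_lt (h : Mx U) {i j : Fin k} (hij : i ≠ j) {b : Set ℂ} (hb : IsPreconnected b)
    (hbi : ∀ x ∈ b, i ∈ Kst U x) (hbj : ∀ x ∈ b, j ∈ Kst U x)
    (h3 : ∀ x ∈ b, (Kst U x).ncard ≤ 3) {x y : ℂ} (hx : x ∈ b) (hy : y ∈ b) :
    dist x y < 1 := by
  by_contra hcon
  push Not at hcon
  obtain ⟨z, hz, hz1, hz2⟩ := isPreconnected_closed_iff.1 hb {z | 1 ≤ dist z x}
    (closure (b ∩ ball x 1)) (isClosed_le continuous_const (continuous_id.dist continuous_const))
    isClosed_closure (by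
      intro z hz
      by_cases h1 : dist z x < 1
      · exact Or.inr (subset_closure ⟨hz, h1⟩)
      · exact Or.inl (not_lt.1 h1)) ⟨y, hy, by
        change 1 ≤ dist y x
        rw [dist_comm]; exact hcon⟩
      ⟨x, hx, subset_closure ⟨hx, mem_ball_self one_pos⟩⟩
  have hzx : dist z x = 1 := by
    refine le_antisymm ?_ hz1
    have : closure (b ∩ ball x 1) ⊆ closedBall x 1 :=
      closure_minimal (inter_subset_right.trans ball_subset_closedBall) isClosed_closedBall
    exact this hz2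
  have hout := h.outer hij (hbi z hz) (hbj z hz) (hbi x hx) (hbj x hx) hzx (h3 z hz) (h3 x hx)
  obtain ⟨z', hz', hz'b, hz'1⟩ := mem_closure_iff_nhds.1 hz2 _ hout
  have := hz' (hbi z' hz'b) (hbj z' hz'b)
  rw [mem_ball] at hz'1
  linarith

/-- the same for the components of a compact piece -/
theorem Mx.comp_lt (h : Mx U) {i j : Fin k} (hij : i ≠ j) {B : Set ℂ}
    (hB : ∀ x ∈ B, i ∈ Kst U x ∧ j ∈ Kst U x ∧ (Kst U x).ncard ≤ 3) (x y : B)
    (hxy : y ∈ connectedComponent x) : dist (x : ℂ) y < 1 := by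
  refine h.conn_lt hij (b := Subtype.val '' connectedComponent x)
    (isPreconnected_connectedComponent.image _ continuous_subtype_val.continuousOn) ?_ ?_ ?_
    ⟨x, mem_connectedComponent, rfl⟩ ⟨y, hxy, rfl⟩
  · rintro _ ⟨z, _, rfl⟩; exact (hB z z.2).1
  · rintro _ ⟨z, _, rfl⟩; exact (hB z z.2).2.1
  · rintro _ ⟨z, _, rfl⟩; exact (hB z z.2).2.2

/-- the same with `Ks` -/
theorem Mx.conn_lt_Ks (h : Mx U) {i j : Fin k} (hij : i ≠ j) {b : Set ℂ} (hb : IsPreconnected b)
    (hbi : ∀ x ∈ b, i ∈ Ks U x) (hbj : ∀ x ∈ b, j ∈ Ks U x)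
    (h3 : ∀ x ∈ b, (Ks U x).card ≤ 3) {x y : ℂ} (hx : x ∈ b) (hy : y ∈ b) :
    dist x y < 1 :=
  h.conn_lt hij hb (fun x hx => mem_Ks.1 (hbi x hx)) (fun x hx => mem_Ks.1 (hbj x hx))
    (fun x hx => by rw [← Ks_card]; exact h3 x hx) hx hy

end Vale.Agent.P032.Six
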